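import Mathlib
import Crest.Prelude.Def_QuadricHamiltonian

set_option autoImplicit false

namespace Crest.Agent.S0316

open Crest.GeometryTopology.Quadric

abbrev C5 := Fin 5 → ℂ

/-- action of a real matrix -/
noncomputable def act (A : Matrix (Fin 5) (Fin 5) ℝ) (z : C5) : C5 :=
  fun i => ∑ j, (A i j : ℂ) * z j

lemma act_mul (A B : Matrix (Fin 5) (Fin 5) ℝ) (z : C5) :
    act (A * B) z = act A (act B z) := by
  ext i
  simp only [act, Matrix.mul_apply, Complex.ofReal_sum, Complex.ofReal_mul, Finset.sum_mul,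
    Finset.mul_sum]
  rw [Finset.sum_comm]
  refine Finset.sum_congr rfl fun j _ => Finset.sum_congr rfl fun k _ => ?_
  ring

lemma act_one (z : C5) : act 1 z = z := by
  ext i
  simp only [act]
  rw [Finset.sum_eq_single i]
  · simp
  · intro j _ hj
    simp [Matrix.one_apply, Ne.symm hj]
  · simp

lemma act_smul (A : Matrix (Fin 5) (Fin 5) ℝ) (c : ℂ) (z : C5) :
    act A (c • z) = c • act A z := by
  ext i
  simp only [act, Pi.smul_apply, smul_eq_mul, Finset.mul_sum]
  refine Finset.sum_congr rfl fun j _ => ?_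
  ring

lemma act_add (A : Matrix (Fin 5) (Fin 5) ℝ) (z w : C5) :
    act A (z + w) = act A z + act A w := by
  ext i
  simp only [act, Pi.add_apply, mul_add, Finset.sum_add_distrib]

lemma herm_act (A : Matrix (Fin 5) (Fin 5) ℝ) (u w : C5) :
    herm (act A u) w = herm u (act A.transpose w) := by
  simp only [herm, act, map_sum, map_mul, Complex.conj_ofReal, Finset.sum_mul, Finset.mul_sum,
    Matrix.transpose_apply]
  rw [Finset.sum_comm]
  refine Finset.sum_congr rfl fun j _ => Finset.sum_congr rfl fun k _ => ?_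
  ring

lemma herm_conj (u w : C5) : herm w u = starRingEnd ℂ (herm u w) := by
  simp only [herm, map_sum, map_mul, Complex.conj_conj]
  refine Finset.sum_congr rfl fun j _ => ?_
  ring

lemma herm_smul_smul (c : ℂ) (hc : ‖c‖ = 1) (u w : C5) : herm (c • u) (c • w) = herm u w := by
  have h : starRingEnd ℂ c * c = 1 := by
    rw [mul_comm, Complex.mul_conj, Complex.normSq_eq_norm_sq, hc]; simp
  simp only [herm, Pi.smul_apply, smul_eq_mul, map_mul]
  refine Finset.sum_congr rfl fun j _ => ?_
  linear_combination (starRingEnd ℂ (u j) * w j) * h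

lemma herm_add_left (u v w : C5) : herm (u + v) w = herm u w + herm v w := by
  simp only [herm, Pi.add_apply, map_add, add_mul, Finset.sum_add_distrib]

lemma herm_add_right (u v w : C5) : herm u (v + w) = herm u v + herm u w := by
  simp only [herm, Pi.add_apply, mul_add, Finset.sum_add_distrib]

/-- bilinear square -/
noncomputable def sq (z : C5) : ℂ := ∑ j, z j ^ 2

lemma sq_act (A : Matrix (Fin 5) (Fin 5) ℝ) (hA : A.transpose * A = 1) (z : C5) :
    sq (act A z) = sq z := by
  have h1 : ∀ z : C5, sq z = herm (fun i => starRingEnd ℂ (z i)) z := by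
    intro z
    simp only [sq, herm, Complex.conj_conj]
    refine Finset.sum_congr rfl fun j _ => ?_
    ring
  have h2 : (fun i => starRingEnd ℂ (act A z i)) = act A (fun i => starRingEnd ℂ (z i)) := by
    ext i
    simp only [act, map_sum, map_mul, Complex.conj_ofReal]
  rw [h1, h2, herm_act, ← act_mul, hA, act_one, ← h1]

lemma herm_act_act (A : Matrix (Fin 5) (Fin 5) ℝ) (hA : A.transpose * A = 1) (z w : C5) :
    herm (act A z) (act A w) = herm z w := by
  rw [herm_act, ← act_mul, hA, act_one]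

/-- Strong form of Hamiltonian isotopies. -/
structure Iso where
  Ψ : ℝ × C5 → C5
  H : ℝ × C5 → ℝ
  smooth_Ψ : ContDiff ℝ (⊤ : ℕ∞) Ψ
  smooth_H : ContDiff ℝ (⊤ : ℕ∞) H
  herm_eq : ∀ t z, herm (Ψ (t,z)) (Ψ (t,z)) = herm z z
  sq_eq : ∀ t z, sq (Ψ (t,z)) = sq z
  compat : ∀ t z (c : ℂ), ‖c‖ = 1 → Ψ (t, c • z) = c • Ψ (t, z)
  start : ∀ z, Ψ (0,z) = z
  inv : ∀ t z (c : ℂ), ‖c‖ = 1 → H (t, c • z) = H (t,z)
  hamilton : ∀ t z w, 2 * (herm (deriv (fun s => Ψ (s,z)) t) w).im =
    fderiv ℝ (fun x => H (t,x)) (Ψ (t,z)) w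

/-- turn an `Iso` into a lift -/
noncomputable def Iso.toLift (I : Iso) : HamiltonianConeLift where
  Ψ := I.Ψ
  H := I.H
  smooth_Ψ := I.smooth_Ψ
  smooth_H := I.smooth_H
  mapsTo_cone := by
    intro t z hz
    refine ⟨?_, ?_⟩
    · rw [I.herm_eq]; exact hz.1
    · have := I.sq_eq t z
      simp only [sq] at this
      rw [this]; exact hz.2
  compatible := by
    intro t z _ c hc
    exact ⟨c, I.compat t z c hc⟩
  start := by
    intro z _
    exact ⟨1, by rw [I.start]; simp⟩
  invariant := by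
    intro t z _ c hc
    exact I.inv t z c hc
  hamilton := by
    intro t _ z _ w _
    exact I.hamilton t z w

/-- one-parameter rotation group data -/
structure Rot where
  U : ℝ → Matrix (Fin 5) (Fin 5) ℝ
  ξ : Matrix (Fin 5) (Fin 5) ℝ
  smooth : ∀ i j, ContDiff ℝ (⊤ : ℕ∞) (fun t => U t i j)
  orth : ∀ t, (U t).transpose * U t = 1
  zero : U 0 = 1
  deriv : ∀ t i j, HasDerivAt (fun t => U t i j) ((ξ * U t) i j) t
  skew : ξ.transpose = -ξ

/-- coordinates are smooth -/
lemma contDiff_coord (i : Fin 5) : ContDiff ℝ (⊤ : ℕ∞) (fun p : ℝ × C5 => p.2 i) :=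
  (contDiff_apply ℝ ℂ i).comp contDiff_snd

lemma contDiff_act {E : Type*} [NormedAddCommGroup E] [NormedSpace ℝ E]
    {A : E → Matrix (Fin 5) (Fin 5) ℝ} {f : E → C5}
    (hA : ∀ i j, ContDiff ℝ (⊤ : ℕ∞) (fun t => A t i j)) (hf : ContDiff ℝ (⊤ : ℕ∞) f) :
    ContDiff ℝ (⊤ : ℕ∞) (fun p => act (A p) (f p)) := by
  rw [contDiff_pi]
  intro i
  simp only [act]
  refine ContDiff.sum fun j _ => ?_
  exact (Complex.ofRealCLM.contDiff.comp (hA i j)).mul ((contDiff_apply ℝ ℂ j).comp hf)

lemma hasDerivAt_act {A : ℝ → Matrix (Fin 5) (Fin 5) ℝ} {A' : Matrix (Fin 5) (Fin 5) ℝ}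
    {f : ℝ → C5} {f' : C5} {t : ℝ}
    (hA : ∀ i j, HasDerivAt (fun t => A t i j) (A' i j) t) (hf : HasDerivAt f f' t) :
    HasDerivAt (fun s => act (A s) (f s)) (act A' (f t) + act (A t) f') t := by
  rw [hasDerivAt_pi]
  intro i
  simp only [act, Pi.add_apply, ← Finset.sum_add_distrib]
  refine HasDerivAt.fun_sum fun j _ => ?_
  have h1 : HasDerivAt (fun s => ((A s i j : ℝ) : ℂ)) ((A' i j : ℝ) : ℂ) t :=
    (hA i j).ofReal_comp
  have h2 : HasDerivAt (fun s => f s j) (f' j) t := (hasDerivAt_pi.1 hf) j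
  exact h1.mul h2

/-- the real-linear map `act A` as a continuous linear map over ℝ -/
noncomputable def actCLM (A : Matrix (Fin 5) (Fin 5) ℝ) : C5 →L[ℝ] C5 :=
  LinearMap.toContinuousLinearMap
    { toFun := act A
      map_add' := act_add A
      map_smul' := by
        intro r z
        ext i
        simp only [act, Pi.smul_apply, Complex.real_smul, Finset.mul_sum, RingHom.id_apply]
        refine Finset.sum_congr rfl fun j _ => ?_
        ring }

lemma actCLM_apply (A : Matrix (Fin 5) (Fin 5) ℝ) (z : C5) : actCLM A z = act A z := rfl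

/-- the quadratic Hamiltonian -/
noncomputable def quad (ξ : Matrix (Fin 5) (Fin 5) ℝ) (z : C5) : ℝ := (herm (act ξ z) z).im

lemma contDiff_herm {E : Type*} [NormedAddCommGroup E] [NormedSpace ℝ E]
    {f g : E → C5} (hf : ContDiff ℝ (⊤ : ℕ∞) f) (hg : ContDiff ℝ (⊤ : ℕ∞) g) :
    ContDiff ℝ (⊤ : ℕ∞) (fun p => herm (f p) (g p)) := by
  simp only [herm]
  refine ContDiff.sum fun j _ => ?_
  refine ContDiff.mul ?_ ((contDiff_apply ℝ ℂ j).comp hg)
  exact Complex.conjCLE.contDiff.comp ((contDiff_apply ℝ ℂ j).comp hf)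

lemma hasDerivAt_herm {f g : ℝ → C5} {f' g' : C5} {t : ℝ} (hf : HasDerivAt f f' t)
    (hg : HasDerivAt g g' t) :
    HasDerivAt (fun s => herm (f s) (g s)) (herm f' (g t) + herm (f t) g') t := by
  simp only [herm, ← Finset.sum_add_distrib]
  refine HasDerivAt.fun_sum fun j _ => ?_
  have h1 : HasDerivAt (fun s => starRingEnd ℂ (f s j)) (starRingEnd ℂ (f' j)) t :=
    Complex.conjCLE.toContinuousLinearMap.hasFDerivAt.comp_hasDerivAt t ((hasDerivAt_pi.1 hf) j)
  exact h1.mul ((hasDerivAt_pi.1 hg) j)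

/-- directional derivative from one-variable derivative -/
lemma fderiv_eq_of_line {E F : Type*} [NormedAddCommGroup E] [NormedSpace ℝ E]
    [NormedAddCommGroup F] [NormedSpace ℝ F] {f : E → F} {x w : E} {v : F}
    (hf : DifferentiableAt ℝ f x) (h : HasDerivAt (fun ε : ℝ => f (x + ε • w)) v 0) :
    fderiv ℝ f x w = v := by
  have h1 : HasDerivAt (fun ε : ℝ => x + ε • w) w 0 := by
    have := ((hasDerivAt_id (0:ℝ)).smul_const w).const_add x
    simpa using this
  have h2 : HasFDerivAt f (fderiv ℝ f x) (x + (0:ℝ) • w) := by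
    simpa using hf.hasFDerivAt
  have h3 := h2.comp_hasDerivAt (0:ℝ) h1
  exact (h3.unique h)

lemma contDiff_quad (ξ : Matrix (Fin 5) (Fin 5) ℝ) : ContDiff ℝ (⊤ : ℕ∞) (quad ξ) := by
  have h : ContDiff ℝ (⊤ : ℕ∞) (fun z : C5 => herm (act ξ z) z) :=
    contDiff_herm (actCLM ξ).contDiff contDiff_id
  exact Complex.imCLM.contDiff.comp h

lemma fderiv_quad (ξ : Matrix (Fin 5) (Fin 5) ℝ) (hξ : ξ.transpose = -ξ) (x w : C5) :
    fderiv ℝ (quad ξ) x w = 2 * (herm (act ξ x) w).im := by
  refine fderiv_eq_of_line ((contDiff_quad ξ).differentiable (by simp)).differentiableAt ?_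
  have h1 : HasDerivAt (fun ε : ℝ => x + ε • w) w 0 := by
    have := ((hasDerivAt_id (0:ℝ)).smul_const w).const_add x
    simpa using this
  have h2 : HasDerivAt (fun ε : ℝ => act ξ (x + ε • w)) (act ξ w) 0 :=
    (actCLM ξ).hasFDerivAt.comp_hasDerivAt (0:ℝ) h1
  have h3 := hasDerivAt_herm h2 h1
  have h4 := Complex.imCLM.hasFDerivAt.comp_hasDerivAt (0:ℝ) h3
  have key : (Complex.imCLM (herm (act ξ w) (x + (0:ℝ) • w) + herm (act ξ (x + (0:ℝ) • w)) w)) =
      2 * (herm (act ξ x) w).im := by
    have e1 : herm (act ξ w) x = - starRingEnd ℂ (herm (act ξ x) w) := by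
      rw [herm_act, hξ]
      have : act (-ξ) x = - act ξ x := by
        ext i; simp [act]
      rw [this]
      have h5 : herm w (-(act ξ x)) = - herm w (act ξ x) := by
        simp [herm]
      rw [h5, herm_conj (act ξ x) w]
    simp only [zero_smul, add_zero]
    rw [e1]
    simp only [Complex.imCLM_apply, Complex.add_im, Complex.neg_im, Complex.conj_im, neg_neg]
    ring
  rw [← key]
  exact h4

/-- composing an `Iso` with a rotation group -/
noncomputable def Iso.rot (I : Iso) (R : Rot) : Iso where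
  Ψ := fun p => act (R.U p.1) (I.Ψ p)
  H := fun p => quad R.ξ p.2 + I.H (p.1, act (R.U p.1).transpose p.2)
  smooth_Ψ := contDiff_act (fun i j => (R.smooth i j).comp contDiff_fst) I.smooth_Ψ
  smooth_H := by
    refine ContDiff.add ?_ ?_
    · exact (contDiff_quad R.ξ).comp contDiff_snd
    · refine I.smooth_H.comp ?_
      refine contDiff_fst.prodMk ?_
      refine contDiff_act (fun i j => ?_) contDiff_snd
      exact (R.smooth j i).comp contDiff_fst
  herm_eq := by
    intro t z
    simp only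
    rw [herm_act_act _ (R.orth t), I.herm_eq]
  sq_eq := by
    intro t z
    simp only
    rw [sq_act _ (R.orth t), I.sq_eq]
  compat := by
    intro t z c hc
    simp only
    rw [I.compat t z c hc, act_smul]
  start := by
    intro z
    simp only
    rw [R.zero, act_one, I.start]
  inv := by
    intro t z c hc
    simp only
    rw [act_smul, I.inv _ _ _ hc]
    congr 1
    simp only [quad]
    rw [act_smul, herm_smul_smul c hc]
  hamilton := by
    intro t z w
    simp only
    have hΨ : DifferentiableAt ℝ (fun s => I.Ψ (s, z)) t := by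
      have h1 : ContDiff ℝ (⊤ : ℕ∞) (fun s : ℝ => I.Ψ (s, z)) :=
        I.smooth_Ψ.comp (contDiff_id.prodMk contDiff_const)
      exact (h1.differentiable (by simp)).differentiableAt
    have hd := hasDerivAt_act (R.deriv t) hΨ.hasDerivAt
    rw [hd.deriv]
    have hUU : (R.U t) * (R.U t).transpose = 1 := by
      rw [mul_eq_one_comm]; exact R.orth t
    rw [act_mul, herm_add_left]
    -- fderiv of the sum
    have hq : DifferentiableAt ℝ (quad R.ξ) (act (R.U t) (I.Ψ (t, z))) :=
      ((contDiff_quad R.ξ).differentiable (by simp)).differentiableAt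
    have hHt : Differentiable ℝ (fun x => I.H (t, x)) := by
      have h1 : ContDiff ℝ (⊤ : ℕ∞) (fun x : C5 => I.H (t, x)) :=
        I.smooth_H.comp (contDiff_const.prodMk contDiff_id)
      exact (h1.differentiable (by simp))
    have hback : act (R.U t).transpose (act (R.U t) (I.Ψ (t, z))) = I.Ψ (t, z) := by
      rw [← act_mul, R.orth t, act_one]
    have hcomp : HasFDerivAt (fun x => I.H (t, act (R.U t).transpose x))
        ((fderiv ℝ (fun x => I.H (t, x)) (I.Ψ (t, z))).comp (actCLM (R.U t).transpose))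
        (act (R.U t) (I.Ψ (t, z))) := by
      have h1 : HasFDerivAt (fun x => I.H (t, x)) (fderiv ℝ (fun x => I.H (t, x)) (I.Ψ (t, z)))
          (actCLM (R.U t).transpose (act (R.U t) (I.Ψ (t, z)))) := by
        rw [actCLM_apply, hback]
        exact (hHt _).hasFDerivAt
      exact h1.comp _ (actCLM (R.U t).transpose).hasFDerivAt
    have hsum := hq.hasFDerivAt.add hcomp
    have e : (fun x => quad R.ξ x + I.H (t, act (R.U t).transpose x)) =
        (quad R.ξ + fun x => I.H (t, act (R.U t).transpose x)) := rfl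
    rw [e, hsum.fderiv]
    simp only [_root_.add_apply, ContinuousLinearMap.comp_apply, actCLM_apply]
    rw [fderiv_quad _ R.skew, ← I.hamilton t z, herm_act (R.U t)]
    simp only [Complex.add_im]
    ring

end Crest.Agent.S0316
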