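import Mathlib
import Crest.Prelude.Def_QuadricHamiltonian
import Crest.Agent.S0316Lib.Basic

set_option autoImplicit false

namespace Crest.Agent.S0316

open Crest.GeometryTopology.Quadric

noncomputable def J0 (z : C5) : ℝ := 4 * ((z 1).re * (z 2).im - (z 2).re * (z 1).im)
noncomputable def J1 (z : C5) : ℝ := 4 * ((z 2).re * (z 0).im - (z 0).re * (z 2).im)
noncomputable def J2 (z : C5) : ℝ := 4 * ((z 0).re * (z 1).im - (z 1).re * (z 0).im)
noncomputable def NJ (z : C5) : ℝ := J0 z ^ 2 + J1 z ^ 2 + J2 z ^ 2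

lemma NJ_nonneg (z : C5) : 0 ≤ NJ z := by unfold NJ; positivity

noncomputable def cr (z : C5) : C5 :=
  ![(J1 z : ℂ) * z 2 - J2 z * z 1, J2 z * z 0 - J0 z * z 2, J0 z * z 1 - J1 z * z 0, 0, 0]

noncomputable def Pf (σ n : ℝ) : ℝ := (1 - σ ^ 2 * n) / (1 + σ ^ 2 * n)
noncomputable def Qf (σ n : ℝ) : ℝ := (2 * σ) / (1 + σ ^ 2 * n)

lemma den_pos (σ n : ℝ) (hn : 0 ≤ n) : 0 < 1 + σ ^ 2 * n := by positivity

lemma PQ (σ n : ℝ) (hn : 0 ≤ n) : Pf σ n ^ 2 + Qf σ n ^ 2 * n = 1 := by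
  have := (den_pos σ n hn).ne'
  unfold Pf Qf
  field_simp
  ring

lemma PQ' (σ : ℝ) (z : C5) : Pf σ (NJ z) ^ 2 + Qf σ (NJ z) ^ 2 *
    ((J0 z) ^ 2 + (J1 z) ^ 2 + (J2 z) ^ 2) = 1 := PQ σ (NJ z) (NJ_nonneg z)

noncomputable def Cay (σ : ℝ) (z : C5) : C5 :=
  ![(Pf σ (NJ z) : ℂ) * z 0 + Qf σ (NJ z) * cr z 0, Pf σ (NJ z) * z 1 + Qf σ (NJ z) * cr z 1,
    Pf σ (NJ z) * z 2 + Qf σ (NJ z) * cr z 2, z 3, z 4]

lemma J_dot (z : C5) : (J0 z : ℂ) * z 0 + J1 z * z 1 + J2 z * z 2 = 0 := by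
  apply Complex.ext <;> simp [J0, J1, J2] <;> ring

lemma J_dot_re (z : C5) : J0 z * (z 0).re + J1 z * (z 1).re + J2 z * (z 2).re = 0 := by
  simp only [J0, J1, J2]; ring

lemma J_dot_im (z : C5) : J0 z * (z 0).im + J1 z * (z 1).im + J2 z * (z 2).im = 0 := by
  simp only [J0, J1, J2]; ring

lemma sq_Cay (σ : ℝ) (z : C5) : sq (Cay σ z) = sq z := by
  have hPQ : ((Pf σ (NJ z) : ℂ)) ^ 2 + (Qf σ (NJ z) : ℂ) ^ 2 * (NJ z : ℂ) = 1 := by
    exact_mod_cast PQ σ (NJ z) (NJ_nonneg z)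
  have hN : (NJ z : ℂ) = (J0 z : ℂ) ^ 2 + (J1 z : ℂ) ^ 2 + (J2 z : ℂ) ^ 2 := by
    simp [NJ]
  have hd := J_dot z
  simp only [sq, Fin.sum_univ_five, Cay, cr, Matrix.cons_val]
  rw [hN] at hPQ
  generalize Pf σ (NJ z) = P at *
  generalize Qf σ (NJ z) = Q at *
  generalize (J0 z : ℂ) = a at *
  generalize (J1 z : ℂ) = b at *
  generalize (J2 z : ℂ) = c at *
  linear_combination (z 0 ^ 2 + z 1 ^ 2 + z 2 ^ 2) * hPQ
    - (Q : ℂ) ^ 2 * (a * z 0 + b * z 1 + c * z 2) * hd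

lemma herm_Cay (σ : ℝ) (z : C5) : herm (Cay σ z) (Cay σ z) = herm z z := by
  have hPQ := PQ' σ z
  have hr := J_dot_re z
  have hi := J_dot_im z
  apply Complex.ext
  · simp only [herm, Fin.sum_univ_five, Cay, cr, Matrix.cons_val, Complex.add_re, Complex.mul_re,
      Complex.mul_im, Complex.sub_re, Complex.sub_im, Complex.add_im, Complex.ofReal_re,
      Complex.ofReal_im, Complex.conj_re, Complex.conj_im]
    generalize Pf σ (NJ z) = P at *
    generalize Qf σ (NJ z) = Q at *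
    generalize (J0 z) = a at *
    generalize (J1 z) = b at *
    generalize (J2 z) = c at *
    linear_combination ((z 0).re ^ 2 + (z 1).re ^ 2 + (z 2).re ^ 2 + (z 0).im ^ 2 + (z 1).im ^ 2
      + (z 2).im ^ 2) * hPQ
      - Q ^ 2 * (a * (z 0).re + b * (z 1).re + c * (z 2).re) * hr
      - Q ^ 2 * (a * (z 0).im + b * (z 1).im + c * (z 2).im) * hi
  · simp only [herm, Fin.sum_univ_five, Complex.add_im, Complex.mul_im, Complex.conj_re,
      Complex.conj_im]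
    ring

lemma J0_Cay (σ : ℝ) (z : C5) : J0 (Cay σ z) = J0 z := by
  have hPQ := PQ' σ z
  have hr := J_dot_re z
  have hi := J_dot_im z
  have h0 : J0 z = 4 * ((z 1).re * (z 2).im - (z 2).re * (z 1).im) := rfl
  have h1 : J1 z = 4 * ((z 2).re * (z 0).im - (z 0).re * (z 2).im) := rfl
  have h2 : J2 z = 4 * ((z 0).re * (z 1).im - (z 1).re * (z 0).im) := rfl
  rw [J0]
  simp only [Cay, cr, Matrix.cons_val, Complex.add_re, Complex.mul_re,
      Complex.mul_im, Complex.sub_re, Complex.sub_im, Complex.add_im, Complex.ofReal_re,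
      Complex.ofReal_im]
  generalize Pf σ (NJ z) = P at *
  generalize Qf σ (NJ z) = Q at *
  generalize (J0 z) = a at *
  generalize (J1 z) = b at *
  generalize (J2 z) = c at *
  linear_combination a * hPQ - P ^ 2 * h0 - Q ^ 2 * a * (a * h0 + b * h1 + c * h2) +
    4 * P * Q * ((z 0).re * hi - (z 0).im * hr)

lemma J1_Cay (σ : ℝ) (z : C5) : J1 (Cay σ z) = J1 z := by
  have hPQ := PQ' σ z
  have hr := J_dot_re z
  have hi := J_dot_im z
  have h0 : J0 z = 4 * ((z 1).re * (z 2).im - (z 2).re * (z 1).im) := rfl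
  have h1 : J1 z = 4 * ((z 2).re * (z 0).im - (z 0).re * (z 2).im) := rfl
  have h2 : J2 z = 4 * ((z 0).re * (z 1).im - (z 1).re * (z 0).im) := rfl
  rw [J1]
  simp only [Cay, cr, Matrix.cons_val, Complex.add_re, Complex.mul_re,
      Complex.mul_im, Complex.sub_re, Complex.sub_im, Complex.add_im, Complex.ofReal_re,
      Complex.ofReal_im]
  generalize Pf σ (NJ z) = P at *
  generalize Qf σ (NJ z) = Q at *
  generalize (J0 z) = a at *
  generalize (J1 z) = b at *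
  generalize (J2 z) = c at *
  linear_combination b * hPQ - P ^ 2 * h1 - Q ^ 2 * b * (a * h0 + b * h1 + c * h2) +
    4 * P * Q * ((z 1).re * hi - (z 1).im * hr)

lemma J2_Cay (σ : ℝ) (z : C5) : J2 (Cay σ z) = J2 z := by
  have hPQ := PQ' σ z
  have hr := J_dot_re z
  have hi := J_dot_im z
  have h0 : J0 z = 4 * ((z 1).re * (z 2).im - (z 2).re * (z 1).im) := rfl
  have h1 : J1 z = 4 * ((z 2).re * (z 0).im - (z 0).re * (z 2).im) := rfl
  have h2 : J2 z = 4 * ((z 0).re * (z 1).im - (z 1).re * (z 0).im) := rfl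
  rw [J2]
  simp only [Cay, cr, Matrix.cons_val, Complex.add_re, Complex.mul_re,
      Complex.mul_im, Complex.sub_re, Complex.sub_im, Complex.add_im, Complex.ofReal_re,
      Complex.ofReal_im]
  generalize Pf σ (NJ z) = P at *
  generalize Qf σ (NJ z) = Q at *
  generalize (J0 z) = a at *
  generalize (J1 z) = b at *
  generalize (J2 z) = c at *
  linear_combination c * hPQ - P ^ 2 * h2 - Q ^ 2 * c * (a * h0 + b * h1 + c * h2) +
    4 * P * Q * ((z 2).re * hi - (z 2).im * hr)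

lemma NJ_Cay (σ : ℝ) (z : C5) : NJ (Cay σ z) = NJ z := by
  unfold NJ
  rw [J0_Cay, J1_Cay, J2_Cay]

lemma conj_mul_self_of_norm {c : ℂ} (hc : ‖c‖ = 1) : c.re ^ 2 + c.im ^ 2 = 1 := by
  have := Complex.normSq_eq_norm_sq c
  rw [hc, Complex.normSq_apply] at this
  linarith

lemma J0_smul (c : ℂ) (hc : ‖c‖ = 1) (z : C5) : J0 (c • z) = J0 z := by
  have h := conj_mul_self_of_norm hc
  simp only [J0, Pi.smul_apply, smul_eq_mul, Complex.mul_re, Complex.mul_im]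
  linear_combination 4 * ((z 1).re * (z 2).im - (z 2).re * (z 1).im) * h

lemma J1_smul (c : ℂ) (hc : ‖c‖ = 1) (z : C5) : J1 (c • z) = J1 z := by
  have h := conj_mul_self_of_norm hc
  simp only [J1, Pi.smul_apply, smul_eq_mul, Complex.mul_re, Complex.mul_im]
  linear_combination 4 * ((z 2).re * (z 0).im - (z 0).re * (z 2).im) * h

lemma J2_smul (c : ℂ) (hc : ‖c‖ = 1) (z : C5) : J2 (c • z) = J2 z := by
  have h := conj_mul_self_of_norm hc
  simp only [J2, Pi.smul_apply, smul_eq_mul, Complex.mul_re, Complex.mul_im]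
  linear_combination 4 * ((z 0).re * (z 1).im - (z 1).re * (z 0).im) * h

lemma NJ_smul (c : ℂ) (hc : ‖c‖ = 1) (z : C5) : NJ (c • z) = NJ z := by
  unfold NJ
  rw [J0_smul c hc, J1_smul c hc, J2_smul c hc]

lemma cr_smul (c : ℂ) (hc : ‖c‖ = 1) (z : C5) : cr (c • z) = c • cr z := by
  ext i
  unfold cr
  rw [J0_smul c hc, J1_smul c hc, J2_smul c hc]
  fin_cases i <;> simp <;> ring

lemma Cay_smul (σ : ℝ) (c : ℂ) (hc : ‖c‖ = 1) (z : C5) : Cay σ (c • z) = c • Cay σ z := by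
  ext i
  unfold Cay
  rw [cr_smul c hc, NJ_smul c hc]
  fin_cases i <;> simp <;> ring

lemma Cay_zero (z : C5) : Cay 0 z = z := by
  ext i
  unfold Cay Pf Qf
  fin_cases i <;> simp

lemma cr_Cay (σ : ℝ) (z : C5) :
    cr (Cay σ z) = ![(Pf σ (NJ z) : ℂ) * cr z 0 - Qf σ (NJ z) * NJ z * z 0,
      (Pf σ (NJ z) : ℂ) * cr z 1 - Qf σ (NJ z) * NJ z * z 1,
      (Pf σ (NJ z) : ℂ) * cr z 2 - Qf σ (NJ z) * NJ z * z 2, 0, 0] := by
  have hN : (NJ z : ℂ) = (J0 z : ℂ) ^ 2 + (J1 z : ℂ) ^ 2 + (J2 z : ℂ) ^ 2 := by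
    simp [NJ]
  have hd := J_dot z
  ext i
  rw [cr, J0_Cay, J1_Cay, J2_Cay]
  fin_cases i
  · simp [Cay, cr, hN]
    linear_combination (Qf σ (NJ z) : ℂ) * (J0 z : ℂ) * hd
  · simp [Cay, cr, hN]
    linear_combination (Qf σ (NJ z) : ℂ) * (J1 z : ℂ) * hd
  · simp [Cay, cr, hN]
    linear_combination (Qf σ (NJ z) : ℂ) * (J2 z : ℂ) * hd
  · simp
  · simp

end Crest.Agent.S0316
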