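import Mathlib
import Crest.Prelude.Def_QuadricHamiltonian
import Crest.Agent.S0316Lib.Basic
import Crest.Agent.S0316Lib.Cay

set_option autoImplicit false

namespace Crest.Agent.S0316

open Crest.GeometryTopology.Quadric

section smooth
variable {E : Type*} [NormedAddCommGroup E] [NormedSpace ℝ E]

lemma cd_re {f : E → C5} (hf : ContDiff ℝ (⊤ : ℕ∞) f) (i : Fin 5) :
    ContDiff ℝ (⊤ : ℕ∞) (fun p => (f p i).re) :=
  Complex.reCLM.contDiff.comp ((contDiff_apply ℝ ℂ i).comp hf)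

lemma cd_im {f : E → C5} (hf : ContDiff ℝ (⊤ : ℕ∞) f) (i : Fin 5) :
    ContDiff ℝ (⊤ : ℕ∞) (fun p => (f p i).im) :=
  Complex.imCLM.contDiff.comp ((contDiff_apply ℝ ℂ i).comp hf)

lemma cd_coord {f : E → C5} (hf : ContDiff ℝ (⊤ : ℕ∞) f) (i : Fin 5) :
    ContDiff ℝ (⊤ : ℕ∞) (fun p => f p i) :=
  (contDiff_apply ℝ ℂ i).comp hf

lemma cd_J0 {f : E → C5} (hf : ContDiff ℝ (⊤ : ℕ∞) f) :
    ContDiff ℝ (⊤ : ℕ∞) (fun p => J0 (f p)) := by
  unfold J0
  exact contDiff_const.mul (((cd_re hf 1).mul (cd_im hf 2)).sub ((cd_re hf 2).mul (cd_im hf 1)))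

lemma cd_J1 {f : E → C5} (hf : ContDiff ℝ (⊤ : ℕ∞) f) :
    ContDiff ℝ (⊤ : ℕ∞) (fun p => J1 (f p)) := by
  unfold J1
  exact contDiff_const.mul (((cd_re hf 2).mul (cd_im hf 0)).sub ((cd_re hf 0).mul (cd_im hf 2)))

lemma cd_J2 {f : E → C5} (hf : ContDiff ℝ (⊤ : ℕ∞) f) :
    ContDiff ℝ (⊤ : ℕ∞) (fun p => J2 (f p)) := by
  unfold J2
  exact contDiff_const.mul (((cd_re hf 0).mul (cd_im hf 1)).sub ((cd_re hf 1).mul (cd_im hf 0)))

lemma cd_NJ {f : E → C5} (hf : ContDiff ℝ (⊤ : ℕ∞) f) :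
    ContDiff ℝ (⊤ : ℕ∞) (fun p => NJ (f p)) := by
  unfold NJ
  exact (((cd_J0 hf).pow 2).add ((cd_J1 hf).pow 2)).add ((cd_J2 hf).pow 2)

lemma cd_ofReal {f : E → ℝ} (hf : ContDiff ℝ (⊤ : ℕ∞) f) :
    ContDiff ℝ (⊤ : ℕ∞) (fun p => (f p : ℂ)) :=
  Complex.ofRealCLM.contDiff.comp hf

lemma cd_cr {f : E → C5} (hf : ContDiff ℝ (⊤ : ℕ∞) f) (i : Fin 5) :
    ContDiff ℝ (⊤ : ℕ∞) (fun p => cr (f p) i) := by
  unfold cr
  have j0 := cd_ofReal (cd_J0 hf)
  have j1 := cd_ofReal (cd_J1 hf)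
  have j2 := cd_ofReal (cd_J2 hf)
  fin_cases i
  · exact (j1.mul (cd_coord hf 2)).sub (j2.mul (cd_coord hf 1))
  · exact (j2.mul (cd_coord hf 0)).sub (j0.mul (cd_coord hf 2))
  · exact (j0.mul (cd_coord hf 1)).sub (j1.mul (cd_coord hf 0))
  · exact contDiff_const
  · exact contDiff_const

lemma cd_Cay {σ : E → ℝ} {f : E → C5} (hσ : ContDiff ℝ (⊤ : ℕ∞) σ) (hf : ContDiff ℝ (⊤ : ℕ∞) f) :
    ContDiff ℝ (⊤ : ℕ∞) (fun p => Cay (σ p) (f p)) := by
  have hden : ContDiff ℝ (⊤ : ℕ∞) (fun p => 1 + σ p ^ 2 * NJ (f p)) :=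
    contDiff_const.add ((hσ.pow 2).mul (cd_NJ hf))
  have hne : ∀ p, 1 + σ p ^ 2 * NJ (f p) ≠ 0 := fun p => (den_pos _ _ (NJ_nonneg _)).ne'
  have hP : ContDiff ℝ (⊤ : ℕ∞) (fun p => ((Pf (σ p) (NJ (f p)) : ℝ) : ℂ)) := by
    apply cd_ofReal
    unfold Pf
    exact (contDiff_const.sub ((hσ.pow 2).mul (cd_NJ hf))).div hden hne
  have hQ : ContDiff ℝ (⊤ : ℕ∞) (fun p => ((Qf (σ p) (NJ (f p)) : ℝ) : ℂ)) := by
    apply cd_ofReal
    unfold Qf
    exact (contDiff_const.mul hσ).div hden hne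
  rw [contDiff_pi]
  intro i
  unfold Cay
  fin_cases i
  · exact (hP.mul (cd_coord hf 0)).add (hQ.mul (cd_cr hf 0))
  · exact (hP.mul (cd_coord hf 1)).add (hQ.mul (cd_cr hf 1))
  · exact (hP.mul (cd_coord hf 2)).add (hQ.mul (cd_cr hf 2))
  · exact cd_coord hf 3
  · exact cd_coord hf 4

end smooth

/-- `log (1+w) / w`, smoothly extended -/
noncomputable def Lg (w : ℝ) : ℝ := dslope Real.log 1 (1 + w)

lemma Lg_zero : Lg 0 = 1 := by
  unfold Lg
  rw [add_zero, dslope_same]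
  simp

lemma Lg_of_ne {w : ℝ} (hw : w ≠ 0) : Lg w = Real.log (1 + w) / w := by
  unfold Lg
  rw [dslope_of_ne _ (by simpa using hw), slope_def_field]
  simp

lemma contDiffAt_Lg {w : ℝ} (hw : 0 ≤ w) : ContDiffAt ℝ (⊤ : ℕ∞) Lg w := by
  have h1 : ContDiffAt ℝ (⊤ : ℕ∞) (fun w : ℝ => 1 + w) w := contDiffAt_const.add contDiffAt_id
  rcases hw.eq_or_lt with h | h
  · subst h
    have ha : AnalyticAt ℝ Real.log 1 := analyticAt_log one_pos
    obtain ⟨p, hp⟩ := ha
    have hb : AnalyticAt ℝ (dslope Real.log 1) 1 := ⟨_, hp.has_fpower_series_dslope_fslope⟩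
    have hc : ContDiffAt ℝ (⊤ : ℕ∞) (dslope Real.log 1) ((fun w : ℝ => 1 + w) 0) := by
      simpa using hb.contDiffAt
    exact hc.comp (0:ℝ) h1
  · have h2 : Lg =ᶠ[nhds w] fun w => Real.log (1 + w) / w := by
      filter_upwards [isOpen_ne.mem_nhds h.ne'] with v hv using Lg_of_ne hv
    refine ContDiffAt.congr_of_eventuallyEq ?_ h2
    refine ContDiffAt.div ?_ contDiffAt_id h.ne'
    exact ContDiffAt.log h1 (by positivity)

noncomputable def FH (σ n : ℝ) : ℝ := n * Lg (σ ^ 2 * n)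

lemma hasDerivAt_FH (σ n : ℝ) (hn : 0 ≤ n) :
    HasDerivAt (FH σ) (1 / (1 + σ ^ 2 * n)) n := by
  by_cases hσ : σ = 0
  · subst hσ
    have : FH 0 = fun n => n := by
      ext m
      simp [FH, Lg_zero]
    rw [this]
    exact (hasDerivAt_id n).congr_deriv (by simp)
  · have : FH σ = fun n => Real.log (1 + σ ^ 2 * n) / σ ^ 2 := by
      ext m
      by_cases hm : m = 0
      · simp [FH, hm]
      · have : σ ^ 2 * m ≠ 0 := mul_ne_zero (pow_ne_zero 2 hσ) hm
        rw [FH, Lg_of_ne this]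
        field_simp
    rw [this]
    have hpos := (den_pos σ n hn).ne'
    have h1 : HasDerivAt (fun n => 1 + σ ^ 2 * n) (σ ^ 2) n := by
      simpa using ((hasDerivAt_id n).const_mul (σ ^ 2)).const_add 1
    have h2 := (h1.log hpos).div_const (σ ^ 2)
    exact h2.congr_deriv (by field_simp)

lemma cd_FH {E : Type*} [NormedAddCommGroup E] [NormedSpace ℝ E] {σ : E → ℝ} {n : E → ℝ}
    (hσ : ContDiff ℝ (⊤ : ℕ∞) σ) (hn : ContDiff ℝ (⊤ : ℕ∞) n) (h0 : ∀ p, 0 ≤ n p) :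
    ContDiff ℝ (⊤ : ℕ∞) (fun p => FH (σ p) (n p)) := by
  have key : ContDiff ℝ (⊤ : ℕ∞) (fun p => Lg (σ p ^ 2 * n p)) := by
    rw [contDiff_iff_contDiffAt]
    intro p
    have h1 : ContDiffAt ℝ (⊤ : ℕ∞) (fun p => σ p ^ 2 * n p) p := ((hσ.pow 2).mul hn).contDiffAt
    have h2 : ContDiffAt ℝ (⊤ : ℕ∞) Lg ((fun p => σ p ^ 2 * n p) p) :=
      contDiffAt_Lg (by have := h0 p; positivity)
    exact ContDiffAt.comp (g := Lg) p h2 h1
  exact hn.mul key

lemma hasDerivAt_line (x w : C5) : HasDerivAt (fun ε : ℝ => x + ε • w) w 0 := by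
  have := ((hasDerivAt_id (0:ℝ)).smul_const w).const_add x
  simpa using this

lemma hasDerivAt_line_re (x w : C5) (i : Fin 5) :
    HasDerivAt (fun ε : ℝ => ((x + ε • w) i).re) (w i).re 0 :=
  Complex.reCLM.hasFDerivAt.comp_hasDerivAt (0:ℝ) ((hasDerivAt_pi.1 (hasDerivAt_line x w)) i)

lemma hasDerivAt_line_im (x w : C5) (i : Fin 5) :
    HasDerivAt (fun ε : ℝ => ((x + ε • w) i).im) (w i).im 0 :=
  Complex.imCLM.hasFDerivAt.comp_hasDerivAt (0:ℝ) ((hasDerivAt_pi.1 (hasDerivAt_line x w)) i)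

noncomputable def dJ0 (x w : C5) : ℝ := 4 * (((w 1).re * (x 2).im + (x 1).re * (w 2).im) -
  ((w 2).re * (x 1).im + (x 2).re * (w 1).im))
noncomputable def dJ1 (x w : C5) : ℝ := 4 * (((w 2).re * (x 0).im + (x 2).re * (w 0).im) -
  ((w 0).re * (x 2).im + (x 0).re * (w 2).im))
noncomputable def dJ2 (x w : C5) : ℝ := 4 * (((w 0).re * (x 1).im + (x 0).re * (w 1).im) -
  ((w 1).re * (x 0).im + (x 1).re * (w 0).im))

lemma hasDerivAt_J0 (x w : C5) : HasDerivAt (fun ε : ℝ => J0 (x + ε • w)) (dJ0 x w) 0 := by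
  unfold J0 dJ0
  have h := (((hasDerivAt_line_re x w 1).mul (hasDerivAt_line_im x w 2)).sub
    ((hasDerivAt_line_re x w 2).mul (hasDerivAt_line_im x w 1))).const_mul 4
  simpa using h

lemma hasDerivAt_J1 (x w : C5) : HasDerivAt (fun ε : ℝ => J1 (x + ε • w)) (dJ1 x w) 0 := by
  unfold J1 dJ1
  have h := (((hasDerivAt_line_re x w 2).mul (hasDerivAt_line_im x w 0)).sub
    ((hasDerivAt_line_re x w 0).mul (hasDerivAt_line_im x w 2))).const_mul 4
  simpa using h

lemma hasDerivAt_J2 (x w : C5) : HasDerivAt (fun ε : ℝ => J2 (x + ε • w)) (dJ2 x w) 0 := by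
  unfold J2 dJ2
  have h := (((hasDerivAt_line_re x w 0).mul (hasDerivAt_line_im x w 1)).sub
    ((hasDerivAt_line_re x w 1).mul (hasDerivAt_line_im x w 0))).const_mul 4
  simpa using h

lemma hasDerivAt_NJ (x w : C5) : HasDerivAt (fun ε : ℝ => NJ (x + ε • w))
    (8 * (herm (cr x) w).im) 0 := by
  unfold NJ
  have h := (((hasDerivAt_J0 x w).fun_pow 2).fun_add ((hasDerivAt_J1 x w).fun_pow 2)).fun_add
    ((hasDerivAt_J2 x w).fun_pow 2)
  refine h.congr_deriv ?_
  simp only [herm, Fin.sum_univ_five, cr, Matrix.cons_val, dJ0, dJ1, dJ2, Complex.add_im,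
    Complex.mul_im, Complex.conj_re, Complex.conj_im, Complex.sub_re, Complex.sub_im,
    Complex.mul_re, Complex.ofReal_re, Complex.ofReal_im, zero_smul, add_zero, map_zero,
    Complex.zero_re, Complex.zero_im]
  push_cast
  ring

noncomputable def s0 : ℝ := 65 / 144

noncomputable def cayIso : Iso where
  Ψ := fun p => Cay (s0 * p.1) p.2
  H := fun p => (s0 / 2) * FH (s0 * p.1) (NJ p.2)
  smooth_Ψ := cd_Cay (contDiff_const.mul contDiff_fst) contDiff_snd
  smooth_H := contDiff_const.mul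
    (cd_FH (contDiff_const.mul contDiff_fst) (cd_NJ contDiff_snd) (fun p => NJ_nonneg _))
  herm_eq := fun t z => herm_Cay _ z
  sq_eq := fun t z => sq_Cay _ z
  compat := fun t z c hc => Cay_smul _ c hc z
  start := fun z => by simp [Cay_zero]
  inv := fun t z c hc => by simp only; rw [NJ_smul c hc]
  hamilton := by
    intro t z w
    simp only
    set σ := s0 * t with hσ
    set n := NJ z with hn
    have hn0 : 0 ≤ n := NJ_nonneg z
    have hden := (den_pos σ n hn0).ne'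
    -- time derivative
    have hσ' : HasDerivAt (fun s : ℝ => s0 * s) s0 t := by
      simpa using (hasDerivAt_id t).const_mul s0
    have hden' : HasDerivAt (fun s : ℝ => 1 + (s0 * s) ^ 2 * n) (2 * σ * s0 * n) t := by
      have := ((hσ'.fun_pow 2).mul_const n).const_add 1
      refine this.congr_deriv ?_
      push_cast
      rw [← hσ]; ring
    have hPd : HasDerivAt (fun s : ℝ => Pf (s0 * s) n)
        (- s0 * (2 / (1 + σ ^ 2 * n)) * (Qf σ n * n)) t := by
      unfold Pf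
      have h1 : HasDerivAt (fun s : ℝ => 1 - (s0 * s) ^ 2 * n) (- (2 * σ * s0 * n)) t := by
        have := ((hσ'.fun_pow 2).mul_const n).const_sub 1
        refine this.congr_deriv ?_
        push_cast
        rw [← hσ]; ring
      have h2 := h1.fun_div hden' (by rw [← hσ]; exact hden)
      refine h2.congr_deriv ?_
      rw [← hσ]
      unfold Qf
      field_simp
      ring
    have hQd : HasDerivAt (fun s : ℝ => Qf (s0 * s) n)
        (s0 * (2 / (1 + σ ^ 2 * n)) * Pf σ n) t := by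
      unfold Qf
      have h1 : HasDerivAt (fun s : ℝ => 2 * (s0 * s)) (2 * s0) t := hσ'.const_mul 2
      have h2 := h1.fun_div hden' (by rw [← hσ]; exact hden)
      refine h2.congr_deriv ?_
      rw [← hσ]
      unfold Pf
      field_simp
      ring
    have hΨ : HasDerivAt (fun s : ℝ => Cay (s0 * s) z)
        (((s0 * (2 / (1 + σ ^ 2 * n)) : ℝ) : ℂ) • cr (Cay σ z)) t := by
      rw [hasDerivAt_pi]
      intro i
      rw [cr_Cay]
      unfold Cay
      rw [← hn]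
      have hP' := hPd.ofReal_comp
      have hQ' := hQd.ofReal_comp
      fin_cases i
      · have := (hP'.mul_const (z 0)).fun_add (hQ'.mul_const (cr z 0))
        refine this.congr_deriv ?_
        simp
        ring
      · have := (hP'.mul_const (z 1)).fun_add (hQ'.mul_const (cr z 1))
        refine this.congr_deriv ?_
        simp
        ring
      · have := (hP'.mul_const (z 2)).fun_add (hQ'.mul_const (cr z 2))
        refine this.congr_deriv ?_
        simp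
        ring
      · simpa using hasDerivAt_const t (z 3)
      · simpa using hasDerivAt_const t (z 4)
    rw [hΨ.deriv]
    -- space derivative
    have hHd : DifferentiableAt ℝ (fun x : C5 => s0 / 2 * FH σ (NJ x)) (Cay σ z) := by
      have : ContDiff ℝ (⊤ : ℕ∞) (fun x : C5 => s0 / 2 * FH σ (NJ x)) :=
        contDiff_const.mul (cd_FH contDiff_const (cd_NJ contDiff_id) (fun p => NJ_nonneg _))
      exact (this.differentiable (by simp)).differentiableAt
    have hF : HasDerivAt (fun ε : ℝ => s0 / 2 * FH σ (NJ (Cay σ z + ε • w)))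
        (s0 / 2 * (1 / (1 + σ ^ 2 * n) * (8 * (herm (cr (Cay σ z)) w).im))) 0 := by
      have h1 : HasDerivAt (FH σ) (1 / (1 + σ ^ 2 * n)) (NJ (Cay σ z + (0:ℝ) • w)) := by
        rw [zero_smul, add_zero, NJ_Cay, ← hn]
        exact hasDerivAt_FH σ n hn0
      exact (h1.comp (0:ℝ) (hasDerivAt_NJ (Cay σ z) w)).const_mul (s0 / 2)
    rw [fderiv_eq_of_line hHd hF]
    have : herm (((s0 * (2 / (1 + σ ^ 2 * n)) : ℝ) : ℂ) • cr (Cay σ z)) w =
        ((s0 * (2 / (1 + σ ^ 2 * n)) : ℝ) : ℂ) * herm (cr (Cay σ z)) w := by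
      simp only [herm, Pi.smul_apply, smul_eq_mul, map_mul, Complex.conj_ofReal, Finset.mul_sum]
      refine Finset.sum_congr rfl fun j _ => ?_
      ring
    rw [this, Complex.im_ofReal_mul]
    ring

end Crest.Agent.S0316
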