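import Mathlib
import Crest.Prelude.Def_QuadricHamiltonian
import Crest.Agent.S0316Lib.Basic
import Crest.Agent.S0316Lib.Cay
import Crest.Agent.S0316Lib.CayIso

set_option autoImplicit false

namespace Crest.Agent.S0316

open Crest.GeometryTopology.Quadric

def ML (c s : ℝ) : Matrix (Fin 5) (Fin 5) ℝ :=
  !![c,0,0,s,0; 0,c,-s,0,0; 0,s,c,0,0; -s,0,0,c,0; 0,0,0,0,1]

def MR (c s : ℝ) : Matrix (Fin 5) (Fin 5) ℝ :=
  !![c,0,s,0,0; 0,c,0,-s,0; -s,0,c,0,0; 0,s,0,c,0; 0,0,0,0,1]

def XL (θ : ℝ) : Matrix (Fin 5) (Fin 5) ℝ :=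
  !![0,0,0,θ,0; 0,0,-θ,0,0; 0,θ,0,0,0; -θ,0,0,0,0; 0,0,0,0,0]

def XR (θ : ℝ) : Matrix (Fin 5) (Fin 5) ℝ :=
  !![0,0,θ,0,0; 0,0,0,-θ,0; -θ,0,0,0,0; 0,θ,0,0,0; 0,0,0,0,0]

lemma hasDerivAt_cosθ (θ t : ℝ) : HasDerivAt (fun t : ℝ => Real.cos (θ * t))
    (-(θ * Real.sin (θ * t))) t := by
  have h : HasDerivAt (fun t : ℝ => θ * t) θ t := by
    exact ((hasDerivAt_id t).const_mul θ).congr_deriv (by simp)
  exact h.cos.congr_deriv (by ring)

lemma hasDerivAt_sinθ (θ t : ℝ) : HasDerivAt (fun t : ℝ => Real.sin (θ * t))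
    (θ * Real.cos (θ * t)) t := by
  have h : HasDerivAt (fun t : ℝ => θ * t) θ t := by
    exact ((hasDerivAt_id t).const_mul θ).congr_deriv (by simp)
  exact h.sin.congr_deriv (by ring)

lemma cd_cosθ (θ : ℝ) : ContDiff ℝ (⊤ : ℕ∞) (fun t : ℝ => Real.cos (θ * t)) :=
  Real.contDiff_cos.comp (contDiff_const.mul contDiff_id)

lemma cd_sinθ (θ : ℝ) : ContDiff ℝ (⊤ : ℕ∞) (fun t : ℝ => Real.sin (θ * t)) :=
  Real.contDiff_sin.comp (contDiff_const.mul contDiff_id)

noncomputable def rotL (θ : ℝ) : Rot where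
  U := fun t => ML (Real.cos (θ * t)) (Real.sin (θ * t))
  ξ := XL θ
  smooth := by
    intro i j
    fin_cases i <;> fin_cases j <;> simp [ML] <;>
      first
        | exact contDiff_const
        | exact cd_cosθ θ
        | exact cd_sinθ θ
        | exact (cd_sinθ θ).neg
  orth := by
    intro t
    have h := Real.sin_sq_add_cos_sq (θ * t)
    ext i j
    fin_cases i <;> fin_cases j <;>
      simp [ML, Matrix.mul_apply, Fin.sum_univ_five] <;>
      first
        | done
        | linear_combination h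
        | ring
  zero := by
    ext i j
    fin_cases i <;> fin_cases j <;> simp [ML]
  deriv := by
    intro t i j
    have hc := hasDerivAt_cosθ θ t
    have hs := hasDerivAt_sinθ θ t
    fin_cases i <;> fin_cases j <;>
      simp [ML, XL, Matrix.mul_apply, Fin.sum_univ_five] <;>
      first
        | exact hc
        | exact hs
        | exact hs.fun_neg
        | exact hasDerivAt_const _ _
        | exact hs.fun_neg.congr_deriv (by ring)
        | exact hc.congr_deriv (by ring)
        | exact hs.congr_deriv (by ring)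
  skew := by
    ext i j
    fin_cases i <;> fin_cases j <;> simp [XL]

noncomputable def rotR (θ : ℝ) : Rot where
  U := fun t => MR (Real.cos (θ * t)) (Real.sin (θ * t))
  ξ := XR θ
  smooth := by
    intro i j
    fin_cases i <;> fin_cases j <;> simp [MR] <;>
      first
        | exact contDiff_const
        | exact cd_cosθ θ
        | exact cd_sinθ θ
        | exact (cd_sinθ θ).neg
  orth := by
    intro t
    have h := Real.sin_sq_add_cos_sq (θ * t)
    ext i j
    fin_cases i <;> fin_cases j <;>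
      simp [MR, Matrix.mul_apply, Fin.sum_univ_five] <;>
      first
        | done
        | linear_combination h
        | ring
  zero := by
    ext i j
    fin_cases i <;> fin_cases j <;> simp [MR]
  deriv := by
    intro t i j
    have hc := hasDerivAt_cosθ θ t
    have hs := hasDerivAt_sinθ θ t
    fin_cases i <;> fin_cases j <;>
      simp [MR, XR, Matrix.mul_apply, Fin.sum_univ_five] <;>
      first
        | exact hc
        | exact hs
        | exact hs.fun_neg
        | exact hasDerivAt_const _ _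
        | exact hs.fun_neg.congr_deriv (by ring)
        | exact hc.congr_deriv (by ring)
        | exact hs.congr_deriv (by ring)
  skew := by
    ext i j
    fin_cases i <;> fin_cases j <;> simp [XR]

noncomputable def β : ℝ := Real.arccos (12 / 13)

lemma cos_β : Real.cos β = 12 / 13 := by
  rw [β, Real.cos_arccos] <;> norm_num

lemma sin_β : Real.sin β = 5 / 13 := by
  rw [β, Real.sin_arccos]
  rw [show (1 : ℝ) - (12 / 13) ^ 2 = (5 / 13) ^ 2 by norm_num]
  exact Real.sqrt_sq (by norm_num)

noncomputable def theIso : Iso := (cayIso.rot (rotR β)).rot (rotL (β + Real.pi))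

noncomputable def theLift : HamiltonianConeLift := theIso.toLift

noncomputable def G (z : C5) : C5 :=
  ![-(144/169) * z 0 - (60/169) * z 2 - (60/169) * z 3 - (25/169) * z 1,
    -(144/169) * z 1 + (60/169) * z 3 + (60/169) * z 2 - (25/169) * z 0,
    -(144/169) * z 2 + (60/169) * z 0 - (60/169) * z 1 + (25/169) * z 3,
    -(144/169) * z 3 - (60/169) * z 1 + (60/169) * z 0 + (25/169) * z 2,
    z 4]

lemma theLift_Ψ (z : C5) : theLift.Ψ (1, z) = G (Cay s0 z) := by
  have h : theLift.Ψ (1, z) = act (ML (Real.cos ((β + Real.pi) * 1)) (Real.sin ((β + Real.pi) * 1)))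
      (act (MR (Real.cos (β * 1)) (Real.sin (β * 1))) (Cay (s0 * 1) z)) := rfl
  rw [h]
  simp only [mul_one, Real.cos_add_pi, Real.sin_add_pi, cos_β, sin_β]
  generalize Cay s0 z = y
  ext i
  fin_cases i <;>
    simp [act, ML, MR, G, Fin.sum_univ_five] <;> ring

end Crest.Agent.S0316
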