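import Mathlib
import Crest.Prelude.Def_QuadricHamiltonian
import Crest.Agent.S0316Lib.Basic
import Crest.Agent.S0316Lib.Cay
import Crest.Agent.S0316Lib.CayIso
import Crest.Agent.S0316Lib.Fix

set_option autoImplicit false

namespace Crest.Agent.S0316

open Crest.GeometryTopology.Quadric

noncomputable def K0 (z : C5) : ℝ := 4 * ((z 3).re * (z 0).im - (z 0).re * (z 3).im)
noncomputable def K1 (z : C5) : ℝ := 4 * ((z 3).re * (z 1).im - (z 1).re * (z 3).im)
noncomputable def K2 (z : C5) : ℝ := 4 * ((z 3).re * (z 2).im - (z 2).re * (z 3).im)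

lemma K0_smul (c : ℂ) (hc : ‖c‖ = 1) (z : C5) : K0 (c • z) = K0 z := by
  have h := conj_mul_self_of_norm hc
  simp only [K0, Pi.smul_apply, smul_eq_mul, Complex.mul_re, Complex.mul_im]
  linear_combination 4 * ((z 3).re * (z 0).im - (z 0).re * (z 3).im) * h

lemma K1_smul (c : ℂ) (hc : ‖c‖ = 1) (z : C5) : K1 (c • z) = K1 z := by
  have h := conj_mul_self_of_norm hc
  simp only [K1, Pi.smul_apply, smul_eq_mul, Complex.mul_re, Complex.mul_im]
  linear_combination 4 * ((z 3).re * (z 1).im - (z 1).re * (z 3).im) * h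

lemma K2_smul (c : ℂ) (hc : ‖c‖ = 1) (z : C5) : K2 (c • z) = K2 z := by
  have h := conj_mul_self_of_norm hc
  simp only [K2, Pi.smul_apply, smul_eq_mul, Complex.mul_re, Complex.mul_im]
  linear_combination 4 * ((z 3).re * (z 2).im - (z 2).re * (z 3).im) * h

lemma K0_Cay (σ : ℝ) (z : C5) : K0 (Cay σ z) = Pf σ (NJ z) * K0 z +
    Qf σ (NJ z) * (J1 z * K2 z - J2 z * K1 z) := by
  simp only [K0, K1, K2, Cay, cr, Matrix.cons_val, Complex.add_re, Complex.mul_re,
      Complex.mul_im, Complex.sub_re, Complex.sub_im, Complex.add_im, Complex.ofReal_re,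
      Complex.ofReal_im]
  ring

lemma K1_Cay (σ : ℝ) (z : C5) : K1 (Cay σ z) = Pf σ (NJ z) * K1 z +
    Qf σ (NJ z) * (J2 z * K0 z - J0 z * K2 z) := by
  simp only [K0, K1, K2, Cay, cr, Matrix.cons_val, Complex.add_re, Complex.mul_re,
      Complex.mul_im, Complex.sub_re, Complex.sub_im, Complex.add_im, Complex.ofReal_re,
      Complex.ofReal_im]
  ring

lemma K2_Cay (σ : ℝ) (z : C5) : K2 (Cay σ z) = Pf σ (NJ z) * K2 z +
    Qf σ (NJ z) * (J0 z * K1 z - J1 z * K0 z) := by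
  simp only [K0, K1, K2, Cay, cr, Matrix.cons_val, Complex.add_re, Complex.mul_re,
      Complex.mul_im, Complex.sub_re, Complex.sub_im, Complex.add_im, Complex.ofReal_re,
      Complex.ofReal_im]
  ring

section G

lemma G_re (z : C5) :
    (G z 0).re = -(144/169) * (z 0).re - (60/169) * (z 2).re - (60/169) * (z 3).re - (25/169) * (z 1).re ∧
    (G z 1).re = -(144/169) * (z 1).re + (60/169) * (z 3).re + (60/169) * (z 2).re - (25/169) * (z 0).re ∧
    (G z 2).re = -(144/169) * (z 2).re + (60/169) * (z 0).re - (60/169) * (z 1).re + (25/169) * (z 3).re ∧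
    (G z 3).re = -(144/169) * (z 3).re - (60/169) * (z 1).re + (60/169) * (z 0).re + (25/169) * (z 2).re := by
  refine ⟨?_, ?_, ?_, ?_⟩ <;> simp [G, Complex.mul_re, Complex.mul_im, Complex.div_re, Complex.div_im] <;> norm_num

lemma G_im (z : C5) :
    (G z 0).im = -(144/169) * (z 0).im - (60/169) * (z 2).im - (60/169) * (z 3).im - (25/169) * (z 1).im ∧
    (G z 1).im = -(144/169) * (z 1).im + (60/169) * (z 3).im + (60/169) * (z 2).im - (25/169) * (z 0).im ∧
    (G z 2).im = -(144/169) * (z 2).im + (60/169) * (z 0).im - (60/169) * (z 1).im + (25/169) * (z 3).im ∧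
    (G z 3).im = -(144/169) * (z 3).im - (60/169) * (z 1).im + (60/169) * (z 0).im + (25/169) * (z 2).im := by
  refine ⟨?_, ?_, ?_, ?_⟩ <;> simp [G, Complex.mul_re, Complex.mul_im, Complex.div_re, Complex.div_im] <;> norm_num

lemma G_4 (z : C5) : G z 4 = z 4 := by simp [G]

lemma X_G (z : C5) :
    J0 (G z) + K0 (G z) = J0 z + K0 z ∧
    J1 (G z) + K1 (G z) = (119/169) * (J1 z + K1 z) - (120/169) * (J2 z + K2 z) ∧
    J2 (G z) + K2 (G z) = (120/169) * (J1 z + K1 z) + (119/169) * (J2 z + K2 z) := by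
  obtain ⟨a0, a1, a2, a3⟩ := G_re z
  obtain ⟨b0, b1, b2, b3⟩ := G_im z
  refine ⟨?_, ?_, ?_⟩ <;> simp only [J0, J1, J2, K0, K1, K2] <;>
    rw [a0, a1, a2, a3, b0, b1, b2, b3] <;> ring

lemma Y_G (z : C5) :
    J1 (G z) - K1 (G z) = J1 z - K1 z ∧
    J2 (G z) - K2 (G z) = (119/169) * (J2 z - K2 z) - (120/169) * (J0 z - K0 z) ∧
    J0 (G z) - K0 (G z) = (120/169) * (J2 z - K2 z) + (119/169) * (J0 z - K0 z) := by
  obtain ⟨a0, a1, a2, a3⟩ := G_re z
  obtain ⟨b0, b1, b2, b3⟩ := G_im z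
  refine ⟨?_, ?_, ?_⟩ <;> simp only [J0, J1, J2, K0, K1, K2] <;>
    rw [a0, a1, a2, a3, b0, b1, b2, b3] <;> ring

end G

/-- consequences of cone membership -/
lemma cone_facts {z : C5} (hz : z ∈ unitCone) :
    (z 0).re ^ 2 + (z 1).re ^ 2 + (z 2).re ^ 2 + (z 3).re ^ 2 + (z 4).re ^ 2 = 1 / 2 ∧
    (z 0).im ^ 2 + (z 1).im ^ 2 + (z 2).im ^ 2 + (z 3).im ^ 2 + (z 4).im ^ 2 = 1 / 2 ∧
    (z 0).re * (z 0).im + (z 1).re * (z 1).im + (z 2).re * (z 2).im + (z 3).re * (z 3).im +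
      (z 4).re * (z 4).im = 0 := by
  obtain ⟨h1, h2⟩ := hz
  have h1r := congrArg Complex.re h1
  have h2r := congrArg Complex.re h2
  have h2i := congrArg Complex.im h2
  simp only [herm, Fin.sum_univ_five, Complex.add_re, Complex.mul_re, Complex.conj_re,
    Complex.conj_im, Complex.one_re, pow_two, Complex.add_im, Complex.mul_im, Complex.zero_re,
    Complex.zero_im] at h1r h2r h2i
  refine ⟨by linarith, by linarith, by linarith⟩

lemma mem_cone {z : C5}
    (h1 : (z 0).re ^ 2 + (z 1).re ^ 2 + (z 2).re ^ 2 + (z 3).re ^ 2 + (z 4).re ^ 2 = 1 / 2)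
    (h2 : (z 0).im ^ 2 + (z 1).im ^ 2 + (z 2).im ^ 2 + (z 3).im ^ 2 + (z 4).im ^ 2 = 1 / 2)
    (h3 : (z 0).re * (z 0).im + (z 1).re * (z 1).im + (z 2).re * (z 2).im + (z 3).re * (z 3).im +
      (z 4).re * (z 4).im = 0) : z ∈ unitCone := by
  refine ⟨?_, ?_⟩
  · apply Complex.ext
    · simp only [herm, Fin.sum_univ_five, Complex.add_re, Complex.mul_re, Complex.conj_re,
        Complex.conj_im, Complex.one_re]
      linarith
    · simp only [herm, Fin.sum_univ_five, Complex.add_im, Complex.mul_im, Complex.conj_re,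
        Complex.conj_im, Complex.one_im]
      ring
  · apply Complex.ext
    · simp only [Fin.sum_univ_five, pow_two, Complex.add_re, Complex.mul_re, Complex.zero_re]
      linarith
    · simp only [Fin.sum_univ_five, pow_two, Complex.add_im, Complex.mul_im, Complex.zero_im]
      linarith

noncomputable def Pl (z : C5) (i j : Fin 5) : ℝ := (z i).re * (z j).im - (z j).re * (z i).im

lemma Pl_eq {z z' : C5} (h4 : z 4 = 0) (h4' : z' 4 = 0)
    (hJ0 : J0 z = J0 z') (hJ1 : J1 z = J1 z') (hJ2 : J2 z = J2 z')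
    (hK0 : K0 z = K0 z') (hK1 : K1 z = K1 z') (hK2 : K2 z = K2 z') (i j : Fin 5) :
    Pl z i j = Pl z' i j := by
  simp only [J0, J1, J2, K0, K1, K2] at hJ0 hJ1 hJ2 hK0 hK1 hK2
  fin_cases i <;> fin_cases j <;> simp [Pl, h4, h4'] <;> linarith

lemma Pl_sum {z : C5} (hz : z ∈ unitCone) (i j : Fin 5) :
    (z i).re * (z j).re + (z i).im * (z j).im = 2 * ∑ k, Pl z i k * Pl z j k := by
  obtain ⟨h1, h2, h3⟩ := cone_facts hz
  simp only [Fin.sum_univ_five, Pl]
  linear_combination (-2 * ((z i).re * (z j).re)) * h2 + (-2 * ((z i).im * (z j).im)) * h1 +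
    2 * ((z i).re * (z j).im + (z i).im * (z j).re) * h3

/-- the momentum determines the point up to phase -/
lemma eq_smul_of_momentum {z z' : C5} (hz : z ∈ unitCone) (hz' : z' ∈ unitCone)
    (hPl : ∀ i j, Pl z i j = Pl z' i j) : z' = herm z z' • z := by
  have hW : ∀ i j, z' i * starRingEnd ℂ (z' j) = z i * starRingEnd ℂ (z j) := by
    intro i j
    apply Complex.ext
    · have h1 := Pl_sum hz i j
      have h2 := Pl_sum hz' i j
      simp only [hPl] at h1
      rw [← h2] at h1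
      simp only [Complex.mul_re, Complex.conj_re, Complex.conj_im]
      linarith
    · have h1 := hPl i j
      simp only [Pl] at h1
      simp only [Complex.mul_im, Complex.conj_re, Complex.conj_im]
      linarith
  ext i
  have h1 : z' i = ∑ j, z' i * starRingEnd ℂ (z' j) * z' j := by
    have h2 := hz'.1
    simp only [herm] at h2
    calc z' i = z' i * 1 := by ring
      _ = z' i * ∑ j, starRingEnd ℂ (z' j) * z' j := by rw [h2]
      _ = _ := by
        rw [Finset.mul_sum]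
        refine Finset.sum_congr rfl fun j _ => ?_
        ring
  rw [h1]
  simp only [hW, Pi.smul_apply, smul_eq_mul, herm, Finset.sum_mul]
  refine Finset.sum_congr rfl fun j _ => ?_
  ring

lemma classify_caseA {y m : ℝ} (hnn : 2 * y ^ 2 + 2 * (169/144) * m ^ 2 = 2)
    (hcc : 12 * m = 13 * (y ^ 2 - m ^ 2)) :
    (m = -12/13 ∧ y = 0) ∨ (m = 156/313 ∧ y ^ 2 = 144 * 482 / 313 ^ 2) := by
  have hy2 : y ^ 2 = 1 - (169/144) * m ^ 2 := by linarith
  have hq : (m + 12/13) * (m - 156/313) = 0 := by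
    rw [hy2] at hcc
    nlinarith
  rcases mul_eq_zero.1 hq with h | h
  · left
    have hm' : m = -12/13 := by linarith
    refine ⟨hm', ?_⟩
    have : y ^ 2 = 0 := by rw [hy2, hm']; norm_num
    exact pow_eq_zero_iff (two_ne_zero) |>.1 this
  · right
    have hm' : m = 156/313 := by linarith
    refine ⟨hm', ?_⟩
    rw [hy2, hm']; norm_num

lemma classify_caseB {x m : ℝ} (hnn : 2 * x ^ 2 + 2 * (169/144) * m ^ 2 = 2)
    (hcc : 12 * m = 13 * (-x ^ 2 - m ^ 2)) :
    (m = -12/13 ∧ x = 0) := by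
  have hx2 : x ^ 2 = 1 - (169/144) * m ^ 2 := by linarith
  have hq : (m + 12/13) * (m - 156/25) = 0 := by
    have h2 : 12 * m = 13 * (-(1 - (169/144) * m ^ 2) - m ^ 2) := by
      rw [← hx2]; exact hcc
    nlinarith
  have hm' : m = -12/13 := by
    rcases mul_eq_zero.1 hq with h | h
    · linarith
    · exfalso
      have hm' : m = 156/25 := by linarith
      rw [hm'] at hx2
      nlinarith [sq_nonneg x]
  refine ⟨hm', ?_⟩
  have : x ^ 2 = 0 := by rw [hx2, hm']; norm_num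
  exact pow_eq_zero_iff (two_ne_zero) |>.1 this

lemma classify_lin {j0 j1 j2 k0 k1 k2 k0' k1' k2' : ℝ}
    (hx0 : j0 + k0 = j0 + k0')
    (hx1 : j1 + k1 = (119/169) * (j1 + k1') - (120/169) * (j2 + k2'))
    (hx2 : j2 + k2 = (120/169) * (j1 + k1') + (119/169) * (j2 + k2'))
    (hy1 : j1 - k1 = j1 - k1')
    (hy2 : j2 - k2 = (119/169) * (j2 - k2') - (120/169) * (j0 - k0'))
    (hy0 : j0 - k0 = (120/169) * (j2 - k2') + (119/169) * (j0 - k0')) :
    ∃ m x y : ℝ, j0 = x + m ∧ j1 = m + y ∧ j2 = 0 ∧ k0 = x - m ∧ k1 = m - y ∧ k2 = 5/6 * m ∧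
      k0' = k0 ∧ k1' = k1 ∧ k2' = -(5/6 * m) := by
  have e0 : k0' = k0 := by linarith
  have e1 : k1' = k1 := by linarith
  refine ⟨(j1 + k1) / 2, (j0 + k0) / 2, (j1 - k1) / 2, ?_, ?_, ?_, ?_, ?_, ?_, e0, e1, ?_⟩ <;>
    subst e0 e1 <;> linarith

/-- real algebra: classification -/
lemma classify {j0 j1 j2 k0 k1 k2 k0' k1' k2' : ℝ}
    (hx0 : j0 + k0 = j0 + k0')
    (hx1 : j1 + k1 = (119/169) * (j1 + k1') - (120/169) * (j2 + k2'))
    (hx2 : j2 + k2 = (120/169) * (j1 + k1') + (119/169) * (j2 + k2'))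
    (hy1 : j1 - k1 = j1 - k1')
    (hy2 : j2 - k2 = (119/169) * (j2 - k2') - (120/169) * (j0 - k0'))
    (hy0 : j0 - k0 = (120/169) * (j2 - k2') + (119/169) * (j0 - k0'))
    (hc2 : k2' - k2 = (65/144) * (j0 * (k1 + k1') - j1 * (k0 + k0')))
    (hjk : j0 * k0 + j1 * k1 + j2 * k2 = 0)
    (hn : j0 ^ 2 + j1 ^ 2 + j2 ^ 2 + k0 ^ 2 + k1 ^ 2 + k2 ^ 2 = 4) :
    ∃ m x : ℝ, j0 = x + m ∧ j1 = x + m ∧ j2 = 0 ∧ k0 = x - m ∧ k1 = m - x ∧ k2 = 5/6 * m ∧
      ((m = -12/13 ∧ x = 0) ∨ (m = 156/313 ∧ x ^ 2 = 144 * 482 / 313 ^ 2)) := by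
  obtain ⟨m, x, y, g0, g1, g2, g3, g4, g5, g6, g7, g8⟩ := classify_lin hx0 hx1 hx2 hy1 hy2 hy0
  clear hx0 hx1 hx2 hy1 hy2 hy0
  subst g6 g7
  subst g0 g1 g2 g3 g4 g5 g8
  have hxy : (y - x) * (y + x) = 0 := by linear_combination -hjk
  have hnn : x ^ 2 + y ^ 2 + 2 * (169/144) * m ^ 2 = 2 := by linear_combination (1/2) * hn
  have hcc : 12 * m = 13 * (x * y - m ^ 2) := by linear_combination (-36/5) * hc2
  clear hn hc2 hjk
  rcases mul_eq_zero.1 hxy with h | h
  · have h' : y = x := by linarith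
    subst h'
    refine ⟨m, y, rfl, by ring, rfl, rfl, rfl, rfl, ?_⟩
    exact classify_caseA (by linear_combination hnn) (by linear_combination hcc)
  · have h' : y = -x := by linarith
    subst h'
    obtain ⟨h1, h2⟩ := classify_caseB (x := x) (m := m) (by linear_combination hnn)
      (by linear_combination hcc)
    refine ⟨m, x, rfl, ?_, rfl, rfl, ?_, rfl, Or.inl ⟨h1, h2⟩⟩ <;> rw [h2] <;> ring

end Crest.Agent.S0316
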