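import Mathlib
import Crest.Prelude.Def_QuadricHamiltonian
import Crest.Agent.S0316Lib.Basic
import Crest.Agent.S0316Lib.Cay
import Crest.Agent.S0316Lib.CayIso
import Crest.Agent.S0316Lib.Fix
import Crest.Agent.S0316Lib.Class

set_option autoImplicit false

namespace Crest.Agent.S0316

open Crest.GeometryTopology.Quadric

lemma Cay_3 (σ : ℝ) (z : C5) : Cay σ z 3 = z 3 := by simp [Cay]
lemma Cay_4 (σ : ℝ) (z : C5) : Cay σ z 4 = z 4 := by simp [Cay]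

lemma NJ_le {z : C5} (hz : z ∈ unitCone) : NJ z ≤ 4 := by
  obtain ⟨h1, h2, h3⟩ := cone_facts hz
  have hid : NJ z = 16 * (((z 0).re ^ 2 + (z 1).re ^ 2 + (z 2).re ^ 2) *
      ((z 0).im ^ 2 + (z 1).im ^ 2 + (z 2).im ^ 2) -
      ((z 0).re * (z 0).im + (z 1).re * (z 1).im + (z 2).re * (z 2).im) ^ 2) := by
    simp only [NJ, J0, J1, J2]; ring
  have ha : (z 0).re ^ 2 + (z 1).re ^ 2 + (z 2).re ^ 2 ≤ 1 / 2 := by nlinarith [sq_nonneg (z 3).re, sq_nonneg (z 4).re]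
  have hb : (z 0).im ^ 2 + (z 1).im ^ 2 + (z 2).im ^ 2 ≤ 1 / 2 := by nlinarith [sq_nonneg (z 3).im, sq_nonneg (z 4).im]
  have ha0 : 0 ≤ (z 0).re ^ 2 + (z 1).re ^ 2 + (z 2).re ^ 2 := by positivity
  have hb0 : 0 ≤ (z 0).im ^ 2 + (z 1).im ^ 2 + (z 2).im ^ 2 := by positivity
  have hab := mul_le_mul ha hb hb0 (by norm_num : (0:ℝ) ≤ 1/2)
  rw [hid]
  nlinarith [sq_nonneg ((z 0).re * (z 0).im + (z 1).re * (z 1).im + (z 2).re * (z 2).im)]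

lemma Pf_nonneg {z : C5} (hz : z ∈ unitCone) : 0 ≤ Pf s0 (NJ z) := by
  have h := NJ_le hz
  have h0 := NJ_nonneg z
  unfold Pf s0
  apply div_nonneg
  · nlinarith
  · positivity

lemma sum_le_zero {p0 p1 p2 p3 q0 q1 q2 q3 : ℝ}
    (h : 0 ≤ -(144/169) * (p0 ^ 2 + q0 ^ 2 + p1 ^ 2 + q1 ^ 2 + p2 ^ 2 + q2 ^ 2 + p3 ^ 2 + q3 ^ 2)
        - (50/169) * (p0 * p1 + q0 * q1 - p2 * p3 - q2 * q3)) :
    p0 ^ 2 + q0 ^ 2 + p1 ^ 2 + q1 ^ 2 + p2 ^ 2 + q2 ^ 2 + p3 ^ 2 + q3 ^ 2 ≤ 0 := by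
  have h1 := sq_nonneg (p0 + p1)
  have h2 := sq_nonneg (q0 + q1)
  have h3 := sq_nonneg (p2 - p3)
  have h4 := sq_nonneg (q2 - q3)
  linarith

lemma all_zero {p0 p1 p2 p3 q0 q1 q2 q3 : ℝ}
    (h : p0 ^ 2 + q0 ^ 2 + p1 ^ 2 + q1 ^ 2 + p2 ^ 2 + q2 ^ 2 + p3 ^ 2 + q3 ^ 2 ≤ 0) :
    p0 = 0 ∧ p1 = 0 ∧ p2 = 0 ∧ p3 = 0 ∧ q0 = 0 ∧ q1 = 0 ∧ q2 = 0 ∧ q3 = 0 := by
  have h0 := sq_nonneg p0
  have h1 := sq_nonneg p1
  have h2 := sq_nonneg p2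
  have h3 := sq_nonneg p3
  have h4 := sq_nonneg q0
  have h5 := sq_nonneg q1
  have h6 := sq_nonneg q2
  have h7 := sq_nonneg q3
  refine ⟨?_, ?_, ?_, ?_, ?_, ?_, ?_, ?_⟩ <;> apply pow_eq_zero_iff (two_ne_zero) |>.1 <;> linarith

lemma z4_zero {z : C5} (hz : z ∈ unitCone) {c : ℂ} (h : G (Cay s0 z) = c • z) : z 4 = 0 := by
  by_contra h4
  have hc : c = 1 := by
    have h5 := congrFun h 4
    rw [G_4, Cay_4, Pi.smul_apply, smul_eq_mul] at h5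
    exact mul_right_cancel₀ h4 (by rw [one_mul]; exact h5.symm)
  subst hc
  rw [one_smul] at h
  obtain ⟨a0, a1, a2, a3⟩ := G_re (Cay s0 z)
  obtain ⟨b0, b1, b2, b3⟩ := G_im (Cay s0 z)
  rw [h] at a0 a1 a2 a3 b0 b1 b2 b3
  have hP := Pf_nonneg hz
  -- (1)
  have e1 : (Cay s0 z 0).re * (z 0).re + (Cay s0 z 0).im * (z 0).im +
      ((Cay s0 z 1).re * (z 1).re + (Cay s0 z 1).im * (z 1).im) +
      ((Cay s0 z 2).re * (z 2).re + (Cay s0 z 2).im * (z 2).im) =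
      Pf s0 (NJ z) * ((z 0).re ^ 2 + (z 0).im ^ 2 + (z 1).re ^ 2 + (z 1).im ^ 2 +
        (z 2).re ^ 2 + (z 2).im ^ 2) := by
    simp only [Cay, cr, Matrix.cons_val, Complex.add_re, Complex.mul_re,
      Complex.mul_im, Complex.sub_re, Complex.sub_im, Complex.add_im, Complex.ofReal_re,
      Complex.ofReal_im]
    ring
  have e3 : (Cay s0 z 3).re * (z 3).re + (Cay s0 z 3).im * (z 3).im =
    (z 3).re ^ 2 + (z 3).im ^ 2 := by rw [Cay_3]; ring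
  -- norms
  have e2 : (Cay s0 z 0).re ^ 2 + (Cay s0 z 0).im ^ 2 + (Cay s0 z 1).re ^ 2 + (Cay s0 z 1).im ^ 2 +
      (Cay s0 z 2).re ^ 2 + (Cay s0 z 2).im ^ 2 + (Cay s0 z 3).re ^ 2 + (Cay s0 z 3).im ^ 2 =
      (z 0).re ^ 2 + (z 0).im ^ 2 + (z 1).re ^ 2 + (z 1).im ^ 2 +
      (z 2).re ^ 2 + (z 2).im ^ 2 + (z 3).re ^ 2 + (z 3).im ^ 2 := by
    have h6 := congrArg Complex.re (herm_Cay s0 z)
    simp only [herm, Fin.sum_univ_five, Complex.add_re, Complex.mul_re, Complex.conj_re,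
      Complex.conj_im] at h6
    rw [Cay_4] at h6
    linarith
  obtain ⟨h1, h2, h3⟩ := cone_facts hz
  set n : ℝ := (z 0).re ^ 2 + (z 0).im ^ 2 + (z 1).re ^ 2 + (z 1).im ^ 2 +
        (z 2).re ^ 2 + (z 2).im ^ 2 with hn
  have hn0 : 0 ≤ n := by positivity
  have hPn : 0 ≤ Pf s0 (NJ z) * n := mul_nonneg hP hn0
  rw [a0, a1, a2, b0, b1, b2] at e1
  rw [a3, b3] at e3
  generalize (Cay s0 z 0).re = p0 at *
  generalize (Cay s0 z 1).re = p1 at *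
  generalize (Cay s0 z 2).re = p2 at *
  generalize (Cay s0 z 3).re = p3 at *
  generalize (Cay s0 z 0).im = q0 at *
  generalize (Cay s0 z 1).im = q1 at *
  generalize (Cay s0 z 2).im = q2 at *
  generalize (Cay s0 z 3).im = q3 at *
  have hz3 : 0 ≤ (z 3).re ^ 2 + (z 3).im ^ 2 := by positivity
  have hh : -(144/169) * (p0 ^ 2 + q0 ^ 2 + p1 ^ 2 + q1 ^ 2 + p2 ^ 2 + q2 ^ 2 + p3 ^ 2 + q3 ^ 2)
        - (50/169) * (p0 * p1 + q0 * q1 - p2 * p3 - q2 * q3) =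
        Pf s0 (NJ z) * n + ((-(144 / 169) * p3 - 60 / 169 * p1 + 60 / 169 * p0 + 25 / 169 * p2) ^ 2 +
        (-(144 / 169) * q3 - 60 / 169 * q1 + 60 / 169 * q0 + 25 / 169 * q2) ^ 2) := by
    linear_combination e1 + e3
  rw [← a3, ← b3] at hh
  have hsum := sum_le_zero (p0 := p0) (p1 := p1) (p2 := p2) (p3 := p3) (q0 := q0) (q1 := q1)
    (q2 := q2) (q3 := q3) (by rw [hh]; positivity)
  rw [e2] at hsum
  obtain ⟨g0, g1, g2, g3, k0, k1, k2, k3⟩ := all_zero hsum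
  rw [g0, g1, g2, g3] at h3 h1
  rw [k0, k1, k2, k3] at h2
  have hre4 : (z 4).re ^ 2 = 1 / 2 := by linarith
  have him4 : (z 4).im ^ 2 = 1 / 2 := by linarith
  have : ((z 4).re * (z 4).im) ^ 2 = 0 := by
    have : (z 4).re * (z 4).im = 0 := by linarith
    rw [this]; norm_num
  rw [mul_pow, hre4, him4] at this
  norm_num at this

end Crest.Agent.S0316
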