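import Mathlib
import Crest.Prelude.Def_QuadricHamiltonian
import Crest.Agent.S0316Lib.Basic
import Crest.Agent.S0316Lib.Cay
import Crest.Agent.S0316Lib.CayIso
import Crest.Agent.S0316Lib.Fix
import Crest.Agent.S0316Lib.Class
import Crest.Agent.S0316Lib.Fixed

set_option autoImplicit false

namespace Crest.Agent.S0316

open Crest.GeometryTopology.Quadric

lemma JK_dot (z : C5) : J0 z * K0 z + J1 z * K1 z + J2 z * K2 z = 0 := by
  simp only [J0, J1, J2, K0, K1, K2]; ring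

lemma JK_norm {z : C5} (hz : z ∈ unitCone) (h4 : z 4 = 0) :
    J0 z ^ 2 + J1 z ^ 2 + J2 z ^ 2 + K0 z ^ 2 + K1 z ^ 2 + K2 z ^ 2 = 4 := by
  obtain ⟨h1, h2, h3⟩ := cone_facts hz
  rw [h4] at h1 h2 h3
  simp only [Complex.zero_re, Complex.zero_im] at h1 h2 h3
  have hid : J0 z ^ 2 + J1 z ^ 2 + J2 z ^ 2 + K0 z ^ 2 + K1 z ^ 2 + K2 z ^ 2 =
      16 * (((z 0).re ^ 2 + (z 1).re ^ 2 + (z 2).re ^ 2 + (z 3).re ^ 2 + 0 ^ 2) *
      ((z 0).im ^ 2 + (z 1).im ^ 2 + (z 2).im ^ 2 + (z 3).im ^ 2 + 0 ^ 2) -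
      ((z 0).re * (z 0).im + (z 1).re * (z 1).im + (z 2).re * (z 2).im
        + (z 3).re * (z 3).im + 0 * 0) ^ 2) := by
    simp only [J0, J1, J2, K0, K1, K2]; ring
  rw [hid, h1, h2, h3]; norm_num

lemma s0_P (z : C5) : s0 * (1 + Pf s0 (NJ z)) = Qf s0 (NJ z) := by
  have := (den_pos s0 (NJ z) (NJ_nonneg z)).ne'
  unfold Pf Qf
  field_simp
  ring

lemma s0_Q (z : C5) : s0 * Qf s0 (NJ z) * (J0 z ^ 2 + J1 z ^ 2 + J2 z ^ 2) =
    1 - Pf s0 (NJ z) := by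
  have : s0 * Qf s0 (NJ z) * NJ z = 1 - Pf s0 (NJ z) := by
    have := (den_pos s0 (NJ z) (NJ_nonneg z)).ne'
    unfold Pf Qf
    field_simp
    ring
  exact this

lemma cayley_2 (z : C5) : K2 (Cay s0 z) - K2 z = (65/144) *
    (J0 z * (K1 z + K1 (Cay s0 z)) - J1 z * (K0 z + K0 (Cay s0 z))) := by
  have h1 := s0_P z
  have h2 := s0_Q z
  have h3 := JK_dot z
  have hs : s0 = 65/144 := rfl
  rw [← hs, K0_Cay, K1_Cay, K2_Cay]
  generalize Pf s0 (NJ z) = P at *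
  generalize Qf s0 (NJ z) = Q at *
  linear_combination (J1 z * K0 z - J0 z * K1 z) * h1 + K2 z * h2 - s0 * Q * J2 z * h3

lemma norm_one_of_fixed {z : C5} (hz : z ∈ unitCone) {c : ℂ} (h : G (Cay s0 z) = c • z) :
    ‖c‖ = 1 := by
  have h1 := theIso.herm_eq 1 z
  have h2 : theIso.Ψ (1, z) = c • z := by rw [← h, ← theLift_Ψ]; rfl
  rw [h2] at h1
  have h3 : herm (c • z) (c • z) = (starRingEnd ℂ c * c) * herm z z := by
    simp only [herm, Pi.smul_apply, smul_eq_mul, map_mul, Finset.mul_sum]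
    refine Finset.sum_congr rfl fun j _ => ?_
    ring
  rw [h3, hz.1, mul_one, mul_comm, Complex.mul_conj, Complex.normSq_eq_norm_sq] at h1
  have h4 : ‖c‖ ^ 2 = 1 := by exact_mod_cast h1
  have h5 : 0 ≤ ‖c‖ := norm_nonneg c
  nlinarith

lemma fixed_classify {z : C5} (hz : z ∈ unitCone) {c : ℂ} (h : G (Cay s0 z) = c • z) :
    ∃ m x : ℝ, J0 z = x + m ∧ J1 z = x + m ∧ J2 z = 0 ∧ K0 z = x - m ∧ K1 z = m - x ∧
      K2 z = 5/6 * m ∧
      ((m = -12/13 ∧ x = 0) ∨ (m = 156/313 ∧ x ^ 2 = 144 * 482 / 313 ^ 2)) := by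
  have hc := norm_one_of_fixed hz h
  have h4 := z4_zero hz h
  obtain ⟨x0, x1, x2⟩ := X_G (Cay s0 z)
  obtain ⟨y1, y2, y0⟩ := Y_G (Cay s0 z)
  rw [h] at x0 x1 x2 y1 y2 y0
  rw [J0_smul c hc, K0_smul c hc, J0_Cay] at x0
  rw [J1_smul c hc, K1_smul c hc, J1_Cay, J2_Cay] at x1
  rw [J2_smul c hc, K2_smul c hc, J1_Cay, J2_Cay] at x2
  rw [J1_smul c hc, K1_smul c hc, J1_Cay] at y1
  rw [J2_smul c hc, K2_smul c hc, J0_Cay, J2_Cay] at y2
  rw [J0_smul c hc, K0_smul c hc, J0_Cay, J2_Cay] at y0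
  exact classify x0 x1 x2 y1 y2 y0 (cayley_2 z) (JK_dot z) (JK_norm hz h4)

/-- explicit points -/
noncomputable def zz (x m e : ℝ) : C5 :=
  ![⟨e / 2, 0⟩, ⟨-e / 2, 0⟩, ⟨5/12 * m * (x - m) / (2 * e), -(x + m) / (2 * e)⟩,
    ⟨-(5/12 * m * (x + m)) / (2 * e), -(x - m) / (2 * e)⟩, 0]

section zz
variable {x m e : ℝ} (he : e ≠ 0) (he2 : e ^ 2 = x ^ 2 + m ^ 2)
  (h1 : x ^ 2 + (169/144) * m ^ 2 = 1) (h2 : 13 * (x ^ 2 - m ^ 2) = 12 * m)

include he he2 h1 in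
lemma zz_mem : zz x m e ∈ unitCone := by
  have hx : (x - m) ^ 2 + (x + m) ^ 2 = 2 * e ^ 2 := by rw [he2]; ring
  apply mem_cone
  · simp only [zz, Matrix.cons_val, Complex.zero_re]
    have e1 : (e / 2) ^ 2 + (-e / 2) ^ 2 + (5 / 12 * m * (x - m) / (2 * e)) ^ 2 +
        (-(5 / 12 * m * (x + m)) / (2 * e)) ^ 2 + 0 ^ 2 =
        e ^ 2 / 2 + (25/144) * m ^ 2 * ((x - m) ^ 2 + (x + m) ^ 2) / (4 * e ^ 2) := by
      field_simp
      ring
    rw [e1, hx]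
    have e2 : e ^ 2 / 2 + (25/144) * m ^ 2 * (2 * e ^ 2) / (4 * e ^ 2) =
        e ^ 2 / 2 + (25/288) * m ^ 2 := by
      field_simp
      ring
    rw [e2, he2]
    linarith
  · simp only [zz, Matrix.cons_val, Complex.zero_im]
    have e1 : (0:ℝ) ^ 2 + 0 ^ 2 + (-(x + m) / (2 * e)) ^ 2 +
        (-(x - m) / (2 * e)) ^ 2 + 0 ^ 2 =
        ((x - m) ^ 2 + (x + m) ^ 2) / (4 * e ^ 2) := by
      field_simp
      ring
    rw [e1, hx]
    field_simp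
    norm_num
  · simp only [zz, Matrix.cons_val, Complex.zero_im, Complex.zero_re]
    field_simp
    ring

lemma zz_J0 (he : e ≠ 0) : J0 (zz x m e) = x + m := by
  simp only [zz, J0, Matrix.cons_val]
  field_simp
  ring

lemma zz_J1 (he : e ≠ 0) : J1 (zz x m e) = x + m := by
  simp only [zz, J1, Matrix.cons_val]
  field_simp
  ring

lemma zz_J2 : J2 (zz x m e) = 0 := by
  simp only [zz, J2, Matrix.cons_val]
  ring

lemma zz_K0 (he : e ≠ 0) : K0 (zz x m e) = x - m := by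
  simp only [zz, K0, Matrix.cons_val]
  field_simp
  ring

lemma zz_K1 (he : e ≠ 0) : K1 (zz x m e) = m - x := by
  simp only [zz, K1, Matrix.cons_val]
  field_simp
  ring

include he he2 in
lemma zz_K2 : K2 (zz x m e) = 5/6 * m := by
  simp only [zz, K2, Matrix.cons_val]
  field_simp
  rw [he2]
  ring

lemma zz_4 : zz x m e 4 = 0 := by simp [zz]

include he he2 h2 in
lemma zz_fixed_aux :
    K0 (Cay s0 (zz x m e)) = x - m ∧ K1 (Cay s0 (zz x m e)) = m - x ∧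
      K2 (Cay s0 (zz x m e)) = -(5/6 * m) := by
  have hP := s0_P (zz x m e)
  have hQ := s0_Q (zz x m e)
  rw [K0_Cay, K1_Cay, K2_Cay]
  generalize Pf s0 (NJ (zz x m e)) = P at *
  generalize Qf s0 (NJ (zz x m e)) = Q at *
  rw [zz_J0 he, zz_J1 he, zz_J2, zz_K0 he, zz_K1 he, zz_K2 he he2]
  rw [zz_J0 he, zz_J1 he, zz_J2] at hQ
  have hs : s0 = 65/144 := rfl
  rw [hs] at hP hQ
  refine ⟨?_, ?_, ?_⟩
  · linear_combination (x - m) * hQ - Q * (5/72) * (x + m) * h2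
  · linear_combination (-(x - m)) * hQ + Q * (5/72) * (x + m) * h2
  · linear_combination (-Q/1) * (2/13) * h2 + (24 / 13) * m * hP

include he he2 h1 h2 in
lemma zz_fixed : ∃ c : ℂ, G (Cay s0 (zz x m e)) = c • zz x m e := by
  have hz := zz_mem he he2 h1
  have hmem : G (Cay s0 (zz x m e)) ∈ unitCone := by
    have := theLift.mapsTo_cone 1 _ hz
    rwa [theLift_Ψ] at this
  obtain ⟨x0, x1, x2⟩ := X_G (Cay s0 (zz x m e))
  obtain ⟨y1, y2, y0⟩ := Y_G (Cay s0 (zz x m e))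
  obtain ⟨k0, k1, k2⟩ := zz_fixed_aux he he2 h2
  rw [J0_Cay, k0, zz_J0 he] at x0
  rw [J1_Cay, k1, zz_J1 he, J2_Cay, k2, zz_J2] at x1 x2
  rw [J1_Cay, k1, zz_J1 he] at y1
  rw [J2_Cay, J0_Cay, k2, k0, zz_J2, zz_J0 he] at y2 y0
  refine ⟨herm (zz x m e) (G (Cay s0 (zz x m e))), ?_⟩
  refine eq_smul_of_momentum hz hmem ?_
  refine Pl_eq zz_4 (by rw [G_4, Cay_4, zz_4]) ?_ ?_ ?_ ?_ ?_ ?_
  · rw [zz_J0 he]; linarith
  · rw [zz_J1 he]; linarith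
  · rw [zz_J2]; linarith
  · rw [zz_K0 he]; linarith
  · rw [zz_K1 he]; linarith
  · rw [zz_K2 he he2]; linarith

end zz

end Crest.Agent.S0316
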